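import Vale.Agent.P034.Main

open Vale.Agent.P034 in
theorem Vale.Agent.Results.P034.Talagrand.result :
    ∃ K : ℝ, ∀ (X : Type) [Fintype X] [DecidableEq X] [Nonempty X] (F : Finset (Finset X)),
      F.Nonempty → IsUpperSet (F : Set (Finset X)) → ∅ ∉ F → qf F ≤ K * q F :=
  ⟨1024000, fun _ _ _ _ F _ _ _ => qf_le F⟩
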